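import Mathlib

/-!
Good codes through a given word (Gilbert-Varshamov counting).

PLAN. `n = card U`, `card O = 2 ^ a` (`a = finrank`), `A = U → O × (Fin r → ZMod 2)`, `r = a + 40`. Random generator
family `g : Fin N' → A`, `C = {∑ j, u j • g j + ε • (ℓ, 0)}`. Bad set `𝔅 = {c | n < 2 * #{v | (c v).2 = 0}}` is
invariant under adding `(ℓ, 0)` and `#𝔅 ≤ #A * 2 ^ n / 2 ^ (r * (n / 2 + 1))`. (i) for `u ≠ 0` the map
`g ↦ ∑ u j • g j` is equidistributed (translate one coordinate `j` with `u j = 1`), so the `g` with some `u ≠ 0`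
landing in `𝔅` have density `≤ 2 ^ N' * 2 ^ n / 2 ^ (r n / 2) < 1/2`. (ii) the restriction to `B` is onto unless some
nonzero functional on `B → O × ..` kills all `g j`; each has density `2 ^ (-N')`, and there are at most
`2 ^ n * 2 ^ ((a + r) * (n / 4))` of them. Choose `N' = n + (a + r) * (n / 4) + 2`.
-/

namespace Vale.Agent.P089

theorem ker_count {Ω Z : Type} [AddCommGroup Ω] [AddCommGroup Z] (f : Ω →+ Z)
    (hf : Function.Surjective f) : {g | f g = 0}.ncard * Nat.card Z = Nat.card Ω := by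
  have h := f.ker.card_mul_index
  rw [AddSubgroup.index_ker, AddMonoidHom.range_eq_top.mpr hf, AddSubgroup.card_top] at h
  rw [← h, ← Nat.card_coe_set_eq]
  rfl

theorem union_count {Ω I : Type} [Finite I] (bad : I → Ω → Prop) {N p q : ℕ} (hp : 0 < p)
    (h : ∀ i, {g | bad i g}.ncard * (p * q) ≤ N) (hI : Nat.card I ≤ p) :
    {g | ∃ i, bad i g}.ncard * q ≤ N := by
  have := Fintype.ofFinite I
  have e : {g | ∃ i, bad i g} = ⋃ i, {g | bad i g} := by
    ext g
    simp
  have h1 := Set.ncard_iUnion_le_of_fintype fun i => {g | bad i g}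
  refine Nat.le_of_mul_le_mul_left ?_ hp
  calc p * ({g | ∃ i, bad i g}.ncard * q) = {g | ∃ i, bad i g}.ncard * (p * q) := by ring
    _ ≤ (∑ i, {g | bad i g}.ncard) * (p * q) := by
        rw [e]
        exact Nat.mul_le_mul_right _ h1
    _ = ∑ i, {g | bad i g}.ncard * (p * q) := Finset.sum_mul _ _ _
    _ ≤ ∑ _i : I, N := Finset.sum_le_sum fun i _ => h i
    _ = Nat.card I * N := by simp
    _ ≤ p * N := Nat.mul_le_mul_right _ hI

theorem zmod_two_eq_one {x : ZMod 2} (h : x ≠ 0) : x = 1 := by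
  revert x
  decide

theorem bad_one {U O : Type} [Fintype U] [DecidableEq U] [AddCommGroup O] [Module (ZMod 2) O]
    (r N : ℕ) (u : Fin N → ZMod 2) (hu : u ≠ 0) (D : Finset U) :
    {g : Fin N → U → O × (Fin r → ZMod 2) | ∀ v ∈ D, ((∑ j, u j • g j) v).2 = 0}.ncard *
      2 ^ (r * D.card) = Nat.card (Fin N → U → O × (Fin r → ZMod 2)) := by
  obtain ⟨j₀, hj⟩ := Function.ne_iff.mp hu
  have hj1 : u j₀ = 1 := zmod_two_eq_one hj
  let f : (Fin N → U → O × (Fin r → ZMod 2)) →+ (D → Fin r → ZMod 2) :=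
    { toFun := fun g v => ((∑ j, u j • g j) v).2
      map_zero' := by
        funext v
        simp
      map_add' := fun g g' => by
        funext v
        simp [Finset.sum_add_distrib] }
  have hf : Function.Surjective f := by
    intro y
    refine ⟨Pi.single j₀ fun v => (0, if h : v ∈ D then y ⟨v, h⟩ else 0), ?_⟩
    funext v
    show ((∑ j, u j • (Pi.single j₀ fun v => (0, if h : v ∈ D then y ⟨v, h⟩ else 0) :
      Fin N → U → O × (Fin r → ZMod 2)) j) v).2 = y v
    rw [Finset.sum_eq_single j₀ (fun j _ hj => by simp [hj]) (by simp), hj1]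
    simp
  have h := ker_count f hf
  have e : Nat.card (D → Fin r → ZMod 2) = 2 ^ (r * D.card) := by
    simp [Nat.card_eq_fintype_card, pow_mul]
  rw [e] at h
  rw [← h]
  congr 2
  ext g
  simp only [Set.mem_ofPred]
  constructor
  · intro hg
    funext v
    exact hg v v.2
  · intro hg v hv
    exact congrFun hg ⟨v, hv⟩

theorem bad_two {U W : Type} [DecidableEq U] [AddCommGroup W] [Module (ZMod 2) W]
    (N : ℕ) (B : Finset U) (φ : (B → W) →ₗ[ZMod 2] ZMod 2) (hφ : φ ≠ 0) :
    {g : Fin N → U → W | ∀ j, φ (fun v => g j v) = 0}.ncard * 2 ^ N = Nat.card (Fin N → U → W) := by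
  obtain ⟨w, hw⟩ := DFunLike.ne_iff.mp hφ
  have hw1 : φ w = 1 := zmod_two_eq_one hw
  let f : (Fin N → U → W) →+ (Fin N → ZMod 2) :=
    { toFun := fun g j => φ fun v : B => g j v
      map_zero' := by
        funext j
        exact map_zero φ
      map_add' := fun g g' => by
        funext j
        exact map_add φ (fun v : B => g j v) fun v : B => g' j v }
  have hf : Function.Surjective f := by
    intro y
    refine ⟨fun j v => if h : v ∈ B then y j • w ⟨v, h⟩ else 0, ?_⟩
    funext j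
    show φ (fun v : B => if h : (v : U) ∈ B then y j • w ⟨v, h⟩ else 0) = y j
    have : (fun v : B => if h : (v : U) ∈ B then y j • w ⟨v, h⟩ else 0) = y j • w := by
      funext v
      simp
    rw [this, map_smul, hw1, smul_eq_mul, mul_one]
  have h := ker_count f hf
  have e : Nat.card (Fin N → ZMod 2) = 2 ^ N := by
    simp [Nat.card_eq_fintype_card]
  rw [e] at h
  rw [← h]
  congr 2
  ext g
  simp only [Set.mem_ofPred]
  exact ⟨fun hg => funext hg, fun hg j => congrFun hg j⟩

theorem exists_gen {U O : Type} [Fintype U] [DecidableEq U] [AddCommGroup O] [Module (ZMod 2) O]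
    [Fintype O] {a r N : ℕ} (ha : Nat.card O = 2 ^ a) (hr : r = a + 40)
    (hN : N = Fintype.card U + (a + r) * (Fintype.card U / 4) + 2) :
    ∃ g : Fin N → U → O × (Fin r → ZMod 2),
      (∀ u : Fin N → ZMod 2, u ≠ 0 → ∀ D : Finset U, (∀ v ∈ D, ((∑ j, u j • g j) v).2 = 0) →
        2 * D.card ≤ Fintype.card U) ∧
      ∀ B : Finset U, 4 * B.card ≤ Fintype.card U →
        ∀ φ : (B → O × (Fin r → ZMod 2)) →ₗ[ZMod 2] ZMod 2, (∀ j, φ (fun v => g j v) = 0) → φ = 0 := by
  set n := Fintype.card U with hn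
  set T := Nat.card (Fin N → U → O × (Fin r → ZMod 2)) with hT
  have h1 := union_count (N := T) (p := 2 ^ (N + n)) (q := 4)
    (fun (i : (Fin N → ZMod 2) × Finset U) (g : Fin N → U → O × (Fin r → ZMod 2)) =>
      i.1 ≠ 0 ∧ n < 2 * i.2.card ∧ ∀ v ∈ i.2, ((∑ j, i.1 j • g j) v).2 = 0) (by positivity) (by
      rintro ⟨u, D⟩
      by_cases hc : u ≠ 0 ∧ n < 2 * D.card
      · simp only [hc.1, hc.2, ne_eq, not_false_eq_true, true_and]
        rw [hT, ← bad_one r N u hc.1 D]
        refine Nat.mul_le_mul_left _ ?_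
        rw [show (4 : ℕ) = 2 ^ 2 by norm_num, ← pow_add]
        refine Nat.pow_le_pow_right (by norm_num) ?_
        have k1 : 2 * (n / 4) + 1 ≤ D.card := by omega
        have k2 : a * (2 * (n / 4) + 1) ≤ a * D.card := Nat.mul_le_mul_left _ k1
        have k3 : 2 * n + 40 * (n / 4) + 4 ≤ 40 * D.card := by omega
        rw [hN, hr]
        nlinarith
      · have : {g : Fin N → U → O × (Fin r → ZMod 2) |
            u ≠ 0 ∧ n < 2 * D.card ∧ ∀ v ∈ D, ((∑ j, u j • g j) v).2 = 0} = ∅ := by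
          ext g
          simp only [Set.mem_ofPred, Set.mem_empty_iff_false, iff_false]
          exact fun h => hc ⟨h.1, h.2.1⟩
        rw [this]
        simp) (by
      simp [Nat.card_eq_fintype_card, pow_add, hn])
  have h2 := union_count (N := T) (p := 2 ^ n) (q := 4)
    (fun (B : Finset U) (g : Fin N → U → O × (Fin r → ZMod 2)) => 4 * B.card ≤ n ∧
      ∃ φ : (B → O × (Fin r → ZMod 2)) →ₗ[ZMod 2] ZMod 2, φ ≠ 0 ∧ ∀ j, φ (fun v => g j v) = 0)
    (by positivity) (by
      intro B
      by_cases hc : 4 * B.card ≤ n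
      · simp only [hc, true_and]
        have : Finite ((B → O × (Fin r → ZMod 2)) →ₗ[ZMod 2] ZMod 2) := DFunLike.finite _
        refine union_count (p := 2 ^ ((a + r) * (n / 4))) _ (by positivity) (fun φ => ?_) ?_
        · by_cases hφ : φ = 0
          · simp [hφ]
          · simp only [hφ, ne_eq, not_false_eq_true, true_and]
            rw [hT, ← bad_two N B φ hφ]
            refine Nat.mul_le_mul_left _ (le_of_eq ?_)
            rw [hN]
            ring
        · rw [← Nat.card_congr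
            (Module.finBasis (ZMod 2) (B → O × (Fin r → ZMod 2))).toDualEquiv.toEquiv, Nat.card_pi,
            Finset.prod_const, Nat.card_prod, ha]
          simp only [Nat.card_eq_fintype_card, Fintype.card_pi, ZMod.card, Finset.prod_const,
            Finset.card_univ, Fintype.card_fin, Fintype.card_coe]
          rw [← pow_add, ← pow_mul]
          exact Nat.pow_le_pow_right (by norm_num) (Nat.mul_le_mul_left _ (by omega))
      · simp [hc]) (by
      simp [Nat.card_eq_fintype_card, hn])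
  by_contra hcon
  have hT0 : 0 < T := Nat.card_pos
  have h3 := Set.ncard_union_le
    {g : Fin N → U → O × (Fin r → ZMod 2) | ∃ i : (Fin N → ZMod 2) × Finset U,
      i.1 ≠ 0 ∧ n < 2 * i.2.card ∧ ∀ v ∈ i.2, ((∑ j, i.1 j • g j) v).2 = 0}
    {g : Fin N → U → O × (Fin r → ZMod 2) | ∃ B : Finset U, 4 * B.card ≤ n ∧
      ∃ φ : (B → O × (Fin r → ZMod 2)) →ₗ[ZMod 2] ZMod 2, φ ≠ 0 ∧ ∀ j, φ (fun v => g j v) = 0}
  rw [Set.eq_univ_of_forall (s := _ ∪ _) (fun g => by
    by_contra hg
    simp only [Set.mem_union, Set.mem_ofPred, not_or] at hg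
    refine hcon ⟨g, fun u hu D hD => ?_, fun B hB φ hφ => ?_⟩
    · by_contra hlt
      exact hg.1 ⟨(u, D), hu, not_le.mp hlt, hD⟩
    · by_contra h0
      exact hg.2 ⟨B, hB, φ, h0, hφ⟩), Set.ncard_univ, ← hT] at h3
  omega

theorem exists_code (O : Type) [AddCommGroup O] [Module (ZMod 2) O] [Fintype O] :
    ∃ r : ℕ, ∀ (U : Type) [Fintype U] [DecidableEq U] [Nonempty U] (ℓ : U → O),
      ∃ C : AddSubgroup (U → O × (Fin r → ZMod 2)), (fun v => (ℓ v, 0)) ∈ C ∧
        (∀ c ∈ C, 2 * (Finset.univ.filter fun v => (c v).2 = 0).card ≤ Fintype.card U ∨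
          c = 0 ∨ c = fun v => (ℓ v, 0)) ∧
        ∀ B : Finset U, 4 * B.card ≤ Fintype.card U →
          ∀ y : U → O × (Fin r → ZMod 2), ∃ c ∈ C, ∀ v ∈ B, c v = y v := by
  have ha : Nat.card O = 2 ^ Module.finrank (ZMod 2) O := by
    rw [Module.natCard_eq_pow_finrank (K := ZMod 2)]
    simp
  refine ⟨Module.finrank (ZMod 2) O + 40, fun U _ _ _ ℓ => ?_⟩
  generalize hr : Module.finrank (ZMod 2) O + 40 = r
  obtain ⟨N, hN⟩ : ∃ N, N = Fintype.card U + (Module.finrank (ZMod 2) O + r) * (Fintype.card U / 4) + 2 :=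
    ⟨_, rfl⟩
  obtain ⟨g, hg1, hg2⟩ := exists_gen (U := U) ha hr.symm hN
  let L : ((Fin N → ZMod 2) × ZMod 2) →+ (U → O × (Fin r → ZMod 2)) :=
    { toFun := fun p => ∑ j, p.1 j • g j + p.2 • (fun v => (ℓ v, 0) : U → O × (Fin r → ZMod 2))
      map_zero' := by simp
      map_add' := fun p p' => by
        simp only [Prod.fst_add, Pi.add_apply, add_smul, Finset.sum_add_distrib, Prod.snd_add]
        abel }
  have hL : ∀ p, L p = ∑ j, p.1 j • g j + p.2 • (fun v => (ℓ v, 0) : U → O × (Fin r → ZMod 2)) :=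
    fun _ => rfl
  refine ⟨L.range, ⟨(0, 1), by simp [hL]⟩, ?_, fun B hB y => ?_⟩
  · rintro _ ⟨⟨u, ε⟩, rfl⟩
    by_cases hu : u = 0
    · right
      by_cases hε : ε = 0
      · left
        simp [hL, hu, hε]
      · right
        simp [hL, hu, zmod_two_eq_one hε]
    · left
      refine hg1 u hu _ fun v hv => ?_
      have := (Finset.mem_filter.mp hv).2
      rw [hL] at this
      simpa using this
  · let R : (Fin N → ZMod 2) →ₗ[ZMod 2] (B → O × (Fin r → ZMod 2)) :=
      Fintype.linearCombination (ZMod 2) fun j => fun v : B => g j v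
    have hR : LinearMap.range R = ⊤ := by
      by_contra hne
      obtain ⟨φ, hφ, hle⟩ := Submodule.exists_le_ker_of_lt_top _ (lt_top_iff_ne_top.mpr hne)
      refine hφ (hg2 B hB φ fun j => hle ⟨Pi.single j 1, ?_⟩)
      simp [R]
    obtain ⟨u, hu⟩ := LinearMap.range_eq_top.mp hR fun v => y v
    refine ⟨L (u, 0), ⟨_, rfl⟩, fun v hv => ?_⟩
    have := congrFun hu ⟨v, hv⟩
    rw [hL]
    simpa [R, Fintype.linearCombination_apply] using this

end Vale.Agent.P089
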