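import Mathlib

/-! The dual of an algebraic subshift, the semidirect product, and the Fourier transform. -/

open MeasureTheory
open scoped Classical ComplexConjugate

namespace Vale.Agent.P089.Fo

variable {G A : Type} [Group G] [AddCommGroup A] (X : AddSubgroup (G → A))
  (hX : ∀ z, ∀ x ∈ X, (fun s => x (z * s)) ∈ X)

/-- the shift -/
def sh (z : G) : X →+ X where
  toFun x := ⟨fun s => x.1 (z * s), hX z x.1 x.2⟩
  map_zero' := rfl
  map_add' _ _ := rfl

theorem sh_sh (z w : G) (x : X) : sh X hX z (sh X hX w x) = sh X hX (w * z) x :=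
  Subtype.ext (funext fun _ => congrArg x.1 (mul_assoc _ _ _).symm)

theorem sh_one (x : X) : sh X hX 1 x = x :=
  Subtype.ext (funext fun _ => congrArg x.1 (one_mul _))

/-- characters depending on finitely many coordinates -/
def BB : Subgroup (AddChar X ℂ) where
  carrier := {b | ∃ J : Finset G, ∀ x y : X, (∀ s ∈ J, x.1 s = y.1 s) → b x = b y}
  one_mem' := ⟨∅, fun _ _ _ => rfl⟩
  mul_mem' := by
    rintro a b ⟨J, hJ⟩ ⟨K, hK⟩
    refine ⟨J ∪ K, fun x y h => ?_⟩
    rw [AddChar.mul_apply, AddChar.mul_apply, hJ x y fun s hs => h s (Finset.mem_union_left _ hs),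
      hK x y fun s hs => h s (Finset.mem_union_right _ hs)]
  inv_mem' := by
    rintro a ⟨J, hJ⟩
    refine ⟨J, fun x y h => ?_⟩
    rw [AddChar.inv_apply, AddChar.inv_apply]
    exact hJ _ _ fun s hs => congrArg Neg.neg (h s hs)

/-- the action on characters -/
def sm (h : G) : BB X →* BB X where
  toFun b := ⟨b.1.compAddMonoidHom (sh X hX h), by
    obtain ⟨J, hJ⟩ := b.2
    exact ⟨J.image (h * ·), fun x y hxy => hJ _ _ fun s hs =>
      hxy _ (Finset.mem_image_of_mem _ hs)⟩⟩
  map_one' := rfl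
  map_mul' _ _ := rfl

theorem sm_apply (h : G) (b : BB X) (x : X) : (sm X hX h b).1 x = b.1 (sh X hX h x) := rfl

theorem sm_sm (h h' : G) (b : BB X) : sm X hX h (sm X hX h' b) = sm X hX (h * h') b :=
  Subtype.ext (AddChar.ext _ _ fun x => by rw [sm_apply, sm_apply, sh_sh, sm_apply])

theorem sm_one (b : BB X) : sm X hX 1 b = b :=
  Subtype.ext (AddChar.ext _ _ fun x => by rw [sm_apply, sh_one])

/-- the action by automorphisms -/
def ph : G →* MulAut (BB X) where
  toFun h := MonoidHom.toMulEquiv (sm X hX h) (sm X hX h⁻¹)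
    (MonoidHom.ext fun b => by simp [sm_sm, sm_one]) (MonoidHom.ext fun b => by simp [sm_sm, sm_one])
  map_one' := MulEquiv.ext fun b => sm_one X hX b
  map_mul' h h' := MulEquiv.ext fun b => (sm_sm X hX h h' b).symm

/-- the semidirect product -/
abbrev Gam : Type := SemidirectProduct (BB X) G (ph X hX)

variable [Fintype A]

omit [Group G] in
theorem pow_one' (b : AddChar X ℂ) (x : X) : b x ^ Fintype.card A = 1 := by
  rw [← AddChar.map_nsmul_eq_pow]
  have : Fintype.card A • x = 0 := Subtype.ext (funext fun s => card_nsmul_eq_zero)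
  rw [this, AddChar.map_zero_eq_one]

omit [Group G] in
theorem norm_one' (b : AddChar X ℂ) (x : X) : ‖b x‖ = 1 :=
  Complex.norm_eq_one_of_pow_eq_one (pow_one' X b x) Fintype.card_ne_zero

omit [Group G] in
theorem conj_eq (b : AddChar X ℂ) (x : X) : conj (b x) = b⁻¹ x := by
  rw [AddChar.inv_apply, AddChar.map_neg_eq_inv, Complex.inv_eq_conj (norm_one' X b x)]

omit [Group G] in
theorem fact (b : BB X) : ∃ (J : Finset G) (F : (J → A) → {w : ℂ | w ^ Fintype.card A = 1}),
    ∀ x : X, b.1 x = F fun s => x.1 s := by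
  obtain ⟨J, hJ⟩ := b.2
  refine ⟨J, fun y => if h : ∃ x : X, (fun s : J => x.1 s) = y then
    ⟨b.1 h.choose, pow_one' X _ _⟩ else ⟨1, one_pow _⟩, fun x => ?_⟩
  have h : ∃ x' : X, (fun s : J => x'.1 s) = fun s : J => x.1 s := ⟨x, rfl⟩
  simp only [dif_pos h]
  exact hJ _ _ fun s hs => (congrFun h.choose_spec ⟨s, hs⟩).symm

omit [Group G] in
theorem countable_BB [Countable G] : Countable (BB X) := by
  have : Finite {w : ℂ | w ^ Fintype.card A = 1} := by
    refine Set.Finite.subset (Polynomial.nthRoots (Fintype.card A) (1 : ℂ)).toFinset.finite_toSet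
      fun w hw => ?_
    simpa [Polynomial.mem_nthRoots Fintype.card_pos] using hw
  choose J F h using fact X
  refine Function.Injective.countable (f := fun b => (⟨J b, F b⟩ :
    Σ J : Finset G, (J → A) → {w : ℂ | w ^ Fintype.card A = 1})) fun b b' hb => ?_
  refine Subtype.ext (AddChar.ext _ _ fun x => ?_)
  rw [h, h]
  exact congrArg (fun p : Σ J : Finset G, (J → A) → {w : ℂ | w ^ Fintype.card A = 1} =>
    (p.2 (fun s => x.1 s) : ℂ)) hb

theorem countable_Gam [Countable G] : Countable (Gam X hX) := by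
  have := countable_BB X
  exact SemidirectProduct.equivProd.injective.countable

variable [MeasurableSpace A] [MeasurableSingletonClass A]

omit [Group G] in
theorem meas (b : BB X) : Measurable fun x => b.1 x := by
  obtain ⟨J, F, h⟩ := fact X b
  rw [funext h]
  exact (measurable_of_finite fun y => (F y : ℂ)).comp
    (measurable_pi_lambda _ fun s => (measurable_pi_apply _).comp measurable_subtype_coe)

variable (μ : Measure X) [IsProbabilityMeasure μ] [μ.IsAddLeftInvariant]

omit [Group G] [μ.IsAddLeftInvariant] in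
theorem integ (b : BB X) : Integrable (fun x => b.1 x) μ :=
  Integrable.of_bound (meas X b).aestronglyMeasurable 1
    (Filter.Eventually.of_forall fun x => (norm_one' X b.1 x).le)

omit [Group G] in
theorem orth (b : BB X) : ∫ x, b.1 x ∂μ = if b = 1 then 1 else 0 := by
  split_ifs with h
  · simp [h]
  · obtain ⟨x₀, h0⟩ : ∃ x₀, b.1 x₀ ≠ 1 := by
      by_contra h1
      exact h (Subtype.ext (AddChar.ext _ _ fun x => by simpa using not_exists.1 h1 x))
    have hm : Measurable fun x : X => x₀ + x :=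
      Measurable.subtype_mk (measurable_pi_lambda _ fun s =>
        (measurable_of_finite fun a => x₀.1 s + a).comp
          ((measurable_pi_apply s).comp measurable_subtype_coe))
    have h1 : ∫ x, b.1 x ∂μ = b.1 x₀ * ∫ x, b.1 x ∂μ := by
      conv_lhs => rw [← map_add_left_eq_self μ x₀]
      rw [integral_map hm.aemeasurable (meas X b).aestronglyMeasurable, ← integral_const_mul]
      simp only [AddChar.map_add_eq_mul]
    have h2 : (1 - b.1 x₀) * ∫ x, b.1 x ∂μ = 0 := by linear_combination h1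
    exact (mul_eq_zero.1 h2).resolve_left (sub_ne_zero.2 h0.symm)

omit [Fintype A] [MeasurableSpace A] [MeasurableSingletonClass A] in
/-- the orthonormal family -/
noncomputable def fi (a : Gam X hX) (x : X) (z : G) : ℂ :=
  if z = a.right⁻¹ then a.left.1 (sh X hX z x) else 0

omit [Fintype A] [MeasurableSpace A] [MeasurableSingletonClass A] in
/-- the Fourier transform -/
noncomputable def fib (ξ : Gam X hX → ℂ) (x : X) (z : G) : ℂ := ∑ᶠ a, ξ a * fi X hX a x z

variable {X hX}

omit [Fintype A] [MeasurableSpace A] [MeasurableSingletonClass A] in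
theorem fi_mul (g a : Gam X hX) (x : X) (z : G) :
    fi X hX (g * a) x z = g.left.1 (sh X hX z x) * fi X hX a x (z * g.right) := by
  have h : z = (g * a).right⁻¹ ↔ z * g.right = a.right⁻¹ := by
    rw [SemidirectProduct.mul_right, mul_inv_rev, eq_mul_inv_iff_mul_eq]
  by_cases h1 : z * g.right = a.right⁻¹
  · rw [fi, fi, if_pos h1, if_pos (h.2 h1), ← sh_sh]
    rfl
  · rw [fi, fi, if_neg h1, if_neg (mt h.1 h1), mul_zero]

omit [Fintype A] [MeasurableSpace A] [MeasurableSingletonClass A] in
theorem fib_eq {ξ : Gam X hX → ℂ} {T : Finset (Gam X hX)} (hT : ∀ a, a ∉ T → ξ a = 0) (x : X)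
    (z : G) : fib X hX ξ x z = ∑ a ∈ T, ξ a * fi X hX a x z :=
  finsum_eq_sum_of_support_subset _ fun a ha => by
    by_contra h
    exact ha (by simp [hT a h])

omit [Fintype A] [MeasurableSpace A] [MeasurableSingletonClass A] in
theorem fib_tr (ξ : Gam X hX → ℂ) (g : Gam X hX) (x : X) (z : G) :
    fib X hX (fun a => ξ (g⁻¹ * a)) x z = g.left.1 (sh X hX z x) * fib X hX ξ x (z * g.right) := by
  rw [fib, fib, mul_finsum, ← finsum_comp_equiv (Equiv.mulLeft g)]
  refine finsum_congr fun a => ?_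
  simp only [Equiv.coe_mulLeft, inv_mul_cancel_left, fi_mul]
  ring

theorem fifi (a a' : Gam X hX) (z : G) :
    Integrable (fun x => conj (fi X hX a x z) * fi X hX a' x z) μ ∧
      ∫ x, conj (fi X hX a x z) * fi X hX a' x z ∂μ =
        if a = a' ∧ z = a.right⁻¹ then 1 else 0 := by
  by_cases h : z = a.right⁻¹
  · by_cases h' : z = a'.right⁻¹
    · have e : (fun x => conj (fi X hX a x z) * fi X hX a' x z) =
          fun x => (ph X hX z (a.left⁻¹ * a'.left)).1 x := by
        funext x
        rw [fi, fi, if_pos h, if_pos h', conj_eq]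
        rfl
      rw [e, orth]
      refine ⟨integ X μ _, if_congr ?_ rfl rfl⟩
      rw [map_eq_one_iff _ (ph X hX z).injective, inv_mul_eq_one]
      exact ⟨fun h1 => ⟨SemidirectProduct.ext h1 (inv_injective (h.symm.trans h')), h⟩,
        fun h1 => by rw [h1.1]⟩
    · have : ¬(a = a' ∧ z = a.right⁻¹) := fun h1 => h' (by rw [← h1.1]; exact h)
      simp [fi, h', this]
  · simp [fi, h]

theorem coef {η : Gam X hX → ℂ} {T : Finset (Gam X hX)} (hT : ∀ a, a ∉ T → η a = 0)
    (a : Gam X hX) (z : G) :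
    Integrable (fun x => conj (fi X hX a x z) * fib X hX η x z) μ ∧
      ∫ x, conj (fi X hX a x z) * fib X hX η x z ∂μ = if z = a.right⁻¹ then η a else 0 := by
  have e : (fun x => conj (fi X hX a x z) * fib X hX η x z) =
      fun x => ∑ a' ∈ T, η a' * (conj (fi X hX a x z) * fi X hX a' x z) := by
    funext x
    rw [fib_eq hT, Finset.mul_sum]
    exact Finset.sum_congr rfl fun _ _ => by ring
  have hi := fun a' (_ : a' ∈ T) => (fifi μ a a' z).1.const_mul (η a')
  rw [e, integral_finsetSum _ hi]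
  refine ⟨integrable_finsetSum _ hi, ?_⟩
  simp only [integral_const_mul, (fifi μ a _ z).2]
  by_cases h : z = a.right⁻¹
  · by_cases ha : a ∈ T <;> simp [h, ha, hT]
  · simp [h]

theorem pars {ξ : Gam X hX → ℂ} {T : Finset (Gam X hX)} (hT : ∀ a, a ∉ T → ξ a = 0)
    (Z : Finset G) (hZ : ∀ a ∈ T, a.right⁻¹ ∈ Z) :
    Integrable (fun x => ∑ z ∈ Z, ‖fib X hX ξ x z‖ ^ 2) μ ∧
      ∫ x, ∑ z ∈ Z, ‖fib X hX ξ x z‖ ^ 2 ∂μ = ∑ a ∈ T, ‖ξ a‖ ^ 2 := by
  have e : (fun x => ((∑ z ∈ Z, ‖fib X hX ξ x z‖ ^ 2 : ℝ) : ℂ)) = fun x =>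
      ∑ z ∈ Z, ∑ a ∈ T, conj (ξ a) * (conj (fi X hX a x z) * fib X hX ξ x z) := by
    funext x
    push_cast
    refine Finset.sum_congr rfl fun z _ => ?_
    rw [← Complex.conj_mul']
    conv_lhs => rw [fib_eq hT, map_sum, Finset.sum_mul, ← fib_eq hT]
    exact Finset.sum_congr rfl fun _ _ => by rw [map_mul, mul_assoc]
  have hi := fun z a (_ : a ∈ T) => (coef μ hT a z).1.const_mul (conj (ξ a))
  have hi' := fun z (_ : z ∈ Z) => integrable_finsetSum _ (hi z)
  have hI := integrable_finsetSum _ hi'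
  rw [← e] at hI
  refine ⟨hI.re.congr (Filter.Eventually.of_forall fun x => Complex.ofReal_re _), Complex.ofReal_injective ?_⟩
  rw [← integral_complex_ofReal, e, integral_finsetSum _ hi']
  simp only [fun z => integral_finsetSum _ (hi z), integral_const_mul, (coef μ hT _ _).2]
  rw [Finset.sum_comm]
  push_cast
  refine Finset.sum_congr rfl fun a ha => ?_
  simp [hZ a ha, Complex.conj_mul']

end Vale.Agent.P089.Fo
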