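import Mathlib

/-!
PLAN. `exists_haar`: discrete topology on `A`; `X` is closed in the compact group `G → A`, so a compact group whose Borel
structure is the subtype of the product sigma algebra (`G` countable); take `addHaarMeasure ⊤`.
`cyl`: the fibres of the restriction homomorphism `X →+ (U → A)` over its range all have the same measure (translate), they
partition `X`, so each has measure `1 / card range`, and `card range` divides `card (U → A)`.
`irr`: if the sum is `a / b`, multiply by `b * ∏_{m ≤ n} u m * k ^ u m`: the tail (positive, at most `2 / u (n+1)` since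
`u (m+1) ≥ 2 u m`) becomes an integer in `(0, 1)` once `u n ≥ max (k, 2 b, n + 1)`.
-/

open MeasureTheory

namespace Vale.Agent.P089

variable {G A : Type} [Countable G] [AddCommGroup A] [Fintype A]
  [MeasurableSpace A] [MeasurableSingletonClass A]

theorem exists_haar (X : AddSubgroup (G → A))
    (hX : ∀ x, (∀ J : Finset G, ∃ y ∈ X, ∀ s ∈ J, y s = x s) → x ∈ X) :
    ∃ μ : Measure X, IsProbabilityMeasure μ ∧ μ.IsAddLeftInvariant := by
  letI : TopologicalSpace A := ⊥
  haveI : DiscreteTopology A := ⟨rfl⟩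
  haveI : IsTopologicalAddGroup A := {}
  have hc : IsClosed (X : Set (G → A)) := isClosed_of_closure_subset fun x hx => hX x fun J => by
    obtain ⟨y, h1, h2⟩ := mem_closure_iff.1 hx (⋂ s ∈ J, {y | y s = x s})
      (isOpen_biInter_finset fun s _ => (isOpen_discrete {x s}).preimage
        (continuous_apply (A := fun _ => A) s))
      (by simp)
    exact ⟨y, h2, by simpa using h1⟩
  haveI : CompactSpace X := isCompact_iff_compactSpace.1 hc.isCompact
  exact ⟨Measure.addHaarMeasure ⊤, ⟨by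
    simpa using Measure.addHaarMeasure_self (K₀ := (⊤ : TopologicalSpace.PositiveCompacts X))⟩,
    inferInstance⟩

theorem cyl (X : AddSubgroup (G → A)) (μ : Measure X) [IsProbabilityMeasure μ]
    [μ.IsAddLeftInvariant] {U : Type} [Fintype U] (ρ : U → G) (y : U → A)
    (h : ∃ x ∈ X, ∀ u, x (ρ u) = y u) :
    0 < μ.real {x | ∀ u, x.1 (ρ u) = y u} ∧
      ∃ k : ℕ, (Fintype.card A : ℝ) ^ Fintype.card U * μ.real {x | ∀ u, x.1 (ρ u) = y u} = k := by
  classical
  let φ : X →+ (U → A) :=
    { toFun := fun x u => x.1 (ρ u), map_zero' := rfl, map_add' := fun _ _ => rfl }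
  have hm : ∀ z, MeasurableSet (φ ⁻¹' {z}) := fun z =>
    (measurable_pi_lambda (fun (x : X) u => x.1 (ρ u)) fun u =>
      (measurable_pi_apply _).comp measurable_subtype_coe) (measurableSet_singleton z)
  have ma : ∀ (w : X) s, Measurable fun v : X => (w + v).1 s := fun w s =>
    (measurable_of_finite (w.1 s + ·)).comp ((measurable_pi_apply s).comp measurable_subtype_coe)
  haveI : MeasurableAdd X :=
    ⟨fun w => (measurable_pi_lambda _ (ma w)).subtype_mk,
      fun w => by simpa only [add_comm _ w] using (measurable_pi_lambda _ (ma w)).subtype_mk⟩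
  obtain ⟨x, hx, hy⟩ := h
  have e : {x : X | ∀ u, x.1 (ρ u) = y u} = φ ⁻¹' {φ ⟨x, hx⟩} := by
    ext w
    simp [φ, funext_iff, hy]
  have h1 : ∀ w w' : X, μ.real (φ ⁻¹' {φ w}) = μ.real (φ ⁻¹' {φ w'}) := fun w w' => by
    rw [Measure.real, ← measure_preimage_add μ (w - w'), Measure.real]
    congr 2
    ext v
    simp [sub_add_eq_add_sub, sub_eq_iff_eq_add]
  have h2 := sum_measureReal_preimage_singleton (μ := μ) (f := φ)
    (Finset.univ.filter (· ∈ φ.range)) fun z _ => hm z
  rw [Finset.sum_congr rfl (g := fun _ => μ.real (φ ⁻¹' {φ ⟨x, hx⟩})) (fun z hz => by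
    obtain ⟨w, rfl⟩ := (Finset.mem_filter.1 hz).2
    exact h1 _ _), show φ ⁻¹' ↑(Finset.univ.filter (· ∈ φ.range)) = Set.univ by
      ext w
      simpa using ⟨w.1, w.2, rfl⟩, probReal_univ, Finset.sum_const, nsmul_eq_mul] at h2
  obtain ⟨k, hk⟩ := φ.range.card_addSubgroup_dvd_card
  rw [Nat.card_eq_fintype_card, Nat.card_eq_fintype_card, Fintype.card_fun,
    Fintype.card_subtype] at hk
  rw [e]
  refine ⟨lt_of_le_of_ne measureReal_nonneg fun h => by simp [← h] at h2, k, ?_⟩
  rw [← Nat.cast_pow, hk, Nat.cast_mul, mul_right_comm, h2, one_mul]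

theorem irr (u : ℕ → ℕ) (k : ℕ) (t : ℕ → ℝ) (s : ℝ) (hk : 0 < k) (h2 : ∀ n, 2 ≤ u n)
    (hg : ∀ n, u n ^ ((u n + 2) ^ 2) ≤ u (n + 1)) (h0 : ∀ n, 0 < t n) (h1 : ∀ n, t n ≤ 1 / u n)
    (hz : ∀ n, ∃ z : ℕ, (u n : ℝ) * k ^ u n * t n = z) (hs : HasSum t s) : Irrational s := by
  rintro ⟨q, rfl⟩
  have g1 : ∀ n, 2 * u n ≤ u (n + 1) := fun n =>
    ((Nat.mul_le_mul_right _ (h2 n)).trans (sq (u n)).ge).trans
      ((Nat.pow_le_pow_right (by linarith [h2 n]) (by nlinarith [h2 n])).trans (hg n))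
  have g2 : Monotone u := monotone_nat_of_le_succ fun n => by linarith [g1 n]
  have g3 : ∀ n, n + 1 ≤ u n := fun n => by
    induction n with
    | zero => linarith [h2 0]
    | succ n ih => linarith [g1 n]
  have g4 : ∀ n j, 2 ^ j * u n ≤ u (j + n) := fun n j => by
    induction j with
    | zero => simp
    | succ j ih =>
      rw [pow_succ, Nat.add_right_comm]
      linarith [g1 (j + n)]
  have up : ∀ n, (0 : ℝ) < u n := fun n => by exact_mod_cast (by linarith [h2 n] : 0 < u n)
  let n := k + 2 * q.den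
  have hT := (hasSum_nat_add_iff' (n + 1)).2 hs
  have T1 := (h0 (0 + (n + 1))).trans_le (le_hasSum hT 0 fun j _ => (h0 _).le)
  have T2 := hasSum_le (fun j => (h1 (j + (n + 1))).trans (show _ ≤ 1 / (u (n + 1) : ℝ) * (1 / 2) ^ j by
    rw [one_div_pow, one_div_mul_one_div, mul_comm]
    exact one_div_le_one_div_of_le (mul_pos (by positivity) (up _)) (by exact_mod_cast g4 _ j))) hT
    (hasSum_geometric_two.mul_left _)
  let P : ℕ := ∏ m ∈ Finset.range (n + 1), u m * k ^ u m
  have P0 : 0 < P := Finset.prod_pos fun m _ => Nat.mul_pos (by linarith [h2 m]) (pow_pos hk _)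
  have P1 : 2 * (q.den * P) < u (n + 1) := by
    have a1 : k ≤ u n := (Nat.le_add_right k (2 * q.den)).trans (Nat.le_of_succ_le (g3 n))
    have a2 : 2 * q.den < u n := (Nat.le_add_left (2 * q.den) k).trans_lt (g3 n)
    have a3 : P ≤ (u n ^ (u n + 1)) ^ u n := by
      refine (Finset.prod_le_pow_card _ _ (u n ^ (u n + 1)) fun m hm => ?_).trans ?_
      · have := g2 (Nat.le_of_lt_succ (Finset.mem_range.1 hm))
        rw [pow_succ']
        exact Nat.mul_le_mul this ((Nat.pow_le_pow_left a1 _).trans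
          (Nat.pow_le_pow_right (by linarith [h2 n]) this))
      · rw [Finset.card_range]
        exact Nat.pow_le_pow_right (pow_pos (by linarith [h2 n]) _) (g3 n)
    calc 2 * (q.den * P) < u n * P := by rw [← mul_assoc]; exact Nat.mul_lt_mul_of_pos_right a2 P0
      _ ≤ u n * (u n ^ (u n + 1)) ^ u n := Nat.mul_le_mul_left _ a3
      _ = u n ^ ((u n + 1) * u n + 1) := by rw [← pow_mul, ← pow_succ']
      _ ≤ _ := (Nat.pow_le_pow_right (by linarith [h2 n]) (by nlinarith)).trans (hg n)
  have P2 : ∀ m ∈ Finset.range (n + 1), ∃ z : ℕ, (P : ℝ) * t m = z := fun m hm => by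
    obtain ⟨z, e⟩ := hz m
    obtain ⟨w, e'⟩ : u m * k ^ u m ∣ P := Finset.dvd_prod_of_mem _ hm
    refine ⟨z * w, ?_⟩
    rw [e']
    push_cast
    rw [← e]
    ring
  choose! z hz' using P2
  have I : ((q.den * P : ℕ) : ℝ) * (q - ∑ m ∈ Finset.range (n + 1), t m) =
      ((q.num * P - q.den * ∑ m ∈ Finset.range (n + 1), z m : ℤ) : ℝ) := by
    push_cast
    rw [← Finset.sum_congr rfl hz', ← Finset.mul_sum, ← Rat.cast_natCast q.den,
      ← Rat.cast_intCast q.num, ← Rat.mul_den_eq_num q]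
    push_cast
    ring
  have Q0 : (0 : ℝ) < (q.den * P : ℕ) := by exact_mod_cast Nat.mul_pos q.pos P0
  have Q1 : (2 : ℝ) * (q.den * P : ℕ) < u (n + 1) := by exact_mod_cast P1
  have J0 := mul_pos Q0 T1
  have J1 := (mul_le_mul_of_nonneg_left T2 Q0.le).trans_lt (show _ < 1 by
    rw [one_div_mul_eq_div, ← mul_div_assoc, div_lt_one (up _)]
    linarith)
  rw [I] at J0 J1
  have : (0 : ℤ) < _ := Int.cast_pos.1 J0
  have : _ < (1 : ℤ) := Int.cast_lt.1 (J1.trans_eq Int.cast_one.symm)
  omega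

end Vale.Agent.P089
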