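import Mathlib

/-!
Rosenfeld counting (a substitute for the local lemma).

PLAN. Fix `a₀ : Λ`. For `D : Finset E` let `Good D` be the set of `x` equal to `a₀` off `D` with `¬ bad c x`
for all `c` with `supp c ⊆ D`. Strong induction on `card D`: for `f ∉ D`,
`β * #Good D ≤ #Good (insert f D)`; consequently `β ^ #(D \ D') * #Good D' ≤ #Good D` for `D' ⊆ D`.
Step: the `card Λ * #Good D` extensions `update x f a` are either in `Good (insert f D)` or satisfy
`bad c` for some `c` with `f ∈ supp c ⊆ insert f D`; these inject (reset the coordinates in `T c f` to `a₀`,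
use `loc`, `det`) into `Good (D \ T c f)`, of size `≤ #Good D / β ^ (#(T c f) - 1)`.
Finally `Good ∅` is nonempty and `Good univ` has positive size.
`exists_free`: take a maximal `T ∋ f` inside `D` with the property; every `e ∈ D \ T` has `φ e ∈ T` or
`e ∈ φ '' T`.
-/

namespace Vale.Agent.P089

theorem rosen {E Λ C : Type} [Fintype E] [DecidableEq E] [Fintype Λ] [Fintype C]
    (supp : C → Finset E) (bad : C → (E → Λ) → Prop) (T : C → E → Finset E) (β : ℝ) (hβ : 1 ≤ β)
    (ne : ∀ c, (supp c).Nonempty)
    (loc : ∀ c x y, (∀ e ∈ supp c, x e = y e) → bad c x → bad c y)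
    (hT : ∀ c, ∀ f ∈ supp c, f ∈ T c f ∧ T c f ⊆ supp c)
    (det : ∀ c, ∀ f ∈ supp c, ∀ x y, bad c x → bad c y → (∀ e, e ∉ T c f → x e = y e) → x = y)
    (hs : ∀ f, β + ∑ c with f ∈ supp c, 1 / β ^ ((T c f).card - 1) ≤ Fintype.card Λ)
    [Nonempty Λ] : ∃ x, ∀ c, ¬ bad c x := by
  classical
  obtain ⟨a₀⟩ := ‹Nonempty Λ›
  let Good : Finset E → Finset (E → Λ) := fun D => Finset.univ.filter fun x =>
    (∀ e, e ∉ D → x e = a₀) ∧ ∀ c, supp c ⊆ D → ¬ bad c x
  have mem : ∀ D x, x ∈ Good D ↔ (∀ e, e ∉ D → x e = a₀) ∧ ∀ c, supp c ⊆ D → ¬ bad c x := by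
    simp [Good]
  have hβ0 : 0 < β := by linarith
  have chain : ∀ n, (∀ D : Finset E, D.card < n → ∀ f ∉ D,
      β * (Good D).card ≤ (Good (insert f D)).card) → ∀ S D : Finset E, Disjoint S D →
      (S ∪ D).card ≤ n → β ^ S.card * (Good D).card ≤ (Good (S ∪ D)).card := by
    intro n H S D
    induction S using Finset.induction_on with
    | empty => simp
    | insert f S hf ih =>
      intro hd hn
      have h1 : f ∉ S ∪ D := fun h => (Finset.mem_union.1 h).elim hf
        (Finset.disjoint_left.1 hd (Finset.mem_insert_self _ _))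
      rw [Finset.insert_union, Finset.card_insert_of_notMem h1] at hn
      rw [Finset.insert_union, Finset.card_insert_of_notMem hf, pow_succ', mul_assoc]
      exact (mul_le_mul_of_nonneg_left (ih (hd.mono_left (Finset.subset_insert _ _)) (by omega))
        hβ0.le).trans (H _ (by omega) f h1)
  have step : ∀ n, ∀ D : Finset E, D.card < n → ∀ f ∉ D,
      β * (Good D).card ≤ (Good (insert f D)).card := by
    intro n
    induction n with
    | zero => exact fun D h => absurd h (by omega)
    | succ n ih =>
      intro D hD f hf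
      let W : Finset (E → Λ) := Finset.univ.filter fun y =>
        (∀ e, e ∉ insert f D → y e = a₀) ∧ ∀ c, supp c ⊆ D → ¬ bad c y
      let B : C → Finset (E → Λ) := fun c => W.filter fun y => supp c ⊆ insert f D ∧ bad c y
      have h1 : Fintype.card Λ * (Good D).card ≤ W.card := by
        rw [← Finset.card_univ, ← Finset.card_product]
        refine Finset.card_le_card_of_injOn (fun p => Function.update p.2 f p.1) ?_ ?_
        · rintro ⟨a, x⟩ hp
          obtain ⟨h1, h2⟩ := (mem D x).1 (Finset.mem_product.1 hp).2
          refine Finset.mem_filter.2 ⟨Finset.mem_univ _, fun e he => ?_, fun c hc hb => ?_⟩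
          · rw [Finset.mem_insert, not_or] at he
            exact (Function.update_of_ne he.1 _ _).trans (h1 e he.2)
          · exact h2 c hc (loc c _ _ (fun e he =>
              Function.update_of_ne (ne_of_mem_of_not_mem (hc he) hf) _ _) hb)
        · rintro ⟨a, x⟩ hp ⟨a', x'⟩ hp' h
          have h1 := ((mem D x).1 (Finset.mem_product.1 hp).2).1 f hf
          have h2 := ((mem D x').1 (Finset.mem_product.1 hp').2).1 f hf
          refine Prod.ext (by simpa using congrFun h f) (funext fun e => ?_)
          by_cases he : e = f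
          · rw [he]
            exact h1.trans h2.symm
          · simpa [he] using congrFun h e
      have h2 : W ⊆ Good (insert f D) ∪ (Finset.univ.filter fun c => f ∈ supp c).biUnion B := by
        intro y hy
        obtain ⟨h3, h4⟩ := (Finset.mem_filter.1 hy).2
        by_cases h5 : ∃ c, supp c ⊆ insert f D ∧ bad c y
        · obtain ⟨c, h6, h7⟩ := h5
          refine Finset.mem_union_right _ (Finset.mem_biUnion.2 ⟨c, Finset.mem_filter.2
            ⟨Finset.mem_univ _, ?_⟩, Finset.mem_filter.2 ⟨hy, h6, h7⟩⟩)
          by_contra h8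
          exact h4 c ((Finset.subset_insert_iff_of_notMem h8).1 h6) h7
        · exact Finset.mem_union_left _ ((mem _ _).2 ⟨h3, fun c hc hb => h5 ⟨c, hc, hb⟩⟩)
      have h3 : ∀ c, f ∈ supp c →
          ((B c).card : ℝ) ≤ 1 / β ^ ((T c f).card - 1) * (Good D).card := by
        intro c hc
        by_cases h4 : supp c ⊆ insert f D
        swap
        · have : B c = ∅ := Finset.filter_eq_empty_iff.2 fun y _ h => h4 h.1
          rw [this, Finset.card_empty, Nat.cast_zero]
          positivity
        obtain ⟨h5, h6⟩ := hT c f hc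
        have h7 : (B c).card ≤ (Good (D \ T c f)).card := by
          refine Finset.card_le_card_of_injOn (fun y e => if e ∈ T c f then a₀ else y e) ?_ ?_
          · intro y hy
            obtain ⟨h8, h9⟩ := (Finset.mem_filter.1 (Finset.mem_filter.1 hy).1).2
            refine (mem _ _).2 ⟨fun e he => ?_, fun c' hc' hb => ?_⟩
            · by_cases h10 : e ∈ T c f
              · exact if_pos h10
              · refine (if_neg h10).trans (h8 e fun h => ?_)
                rcases Finset.mem_insert.1 h with rfl | h
                · exact h10 h5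
                · exact he (Finset.mem_sdiff.2 ⟨h, h10⟩)
            · exact h9 c' (hc'.trans Finset.sdiff_subset)
                (loc c' _ _ (fun e he => if_neg (Finset.mem_sdiff.1 (hc' he)).2) hb)
          · intro y hy y' hy' h
            refine det c f hc y y' (Finset.mem_filter.1 hy).2.2 (Finset.mem_filter.1 hy').2.2
              fun e he => ?_
            simpa [he] using congrFun h e
        have e : (T c f).erase f ∪ D \ T c f = D := by
          ext e
          simp only [Finset.mem_union, Finset.mem_erase, Finset.mem_sdiff]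
          constructor
          · rintro (h | h)
            · exact (Finset.mem_insert.1 (h4 (h6 h.2))).resolve_left h.1
            · exact h.1
          · intro h
            by_cases h' : e ∈ T c f
            · exact Or.inl ⟨fun h'' => hf (h'' ▸ h), h'⟩
            · exact Or.inr ⟨h, h'⟩
        have h8 := chain n ih ((T c f).erase f) (D \ T c f)
          (Finset.disjoint_sdiff.mono_left (Finset.erase_subset _ _)) (by rw [e]; omega)
        rw [e, Finset.card_erase_of_mem h5] at h8
        rw [one_div, le_inv_mul_iff₀ (by positivity)]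
        exact (mul_le_mul_of_nonneg_left (Nat.cast_le.2 h7) (by positivity)).trans h8
      have h4 : (Fintype.card Λ : ℝ) * (Good D).card ≤
          (Good (insert f D)).card + ∑ c with f ∈ supp c, ((B c).card : ℝ) := by
        exact_mod_cast h1.trans ((Finset.card_le_card h2).trans ((Finset.card_union_le _ _).trans
          (Nat.add_le_add_left Finset.card_biUnion_le _)))
      have h5 := Finset.sum_le_sum (s := Finset.univ.filter fun c => f ∈ supp c)
        fun c hc => h3 c (Finset.mem_filter.1 hc).2
      rw [← Finset.sum_mul] at h5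
      have h6 := mul_le_mul_of_nonneg_right (hs f) (Nat.cast_nonneg (Good D).card)
      rw [add_mul] at h6
      linarith
  have h1 := chain _ (step _) Finset.univ ∅ (Finset.disjoint_empty_right _) le_rfl
  have h2 : (0 : ℝ) < (Good ∅).card := by
    exact_mod_cast Finset.card_pos.2 ⟨fun _ => a₀, (mem _ _).2 ⟨fun _ _ => rfl,
      fun c hc => absurd (Finset.subset_empty.1 hc) (ne c).ne_empty⟩⟩
  obtain ⟨x, hx⟩ := Finset.card_pos.1 (Nat.cast_pos.1 ((mul_pos (pow_pos hβ0 _) h2).trans_le h1))
  exact ⟨x, fun c => ((mem _ _).1 hx).2 c (by simp)⟩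

theorem exists_free {E : Type} [DecidableEq E] (D : Finset E) (φ : E → E) (hi : Set.InjOn φ D)
    (hφ : ∀ e ∈ D, φ e ≠ e) (f : E) (hf : f ∈ D) :
    ∃ T ⊆ D, f ∈ T ∧ (∀ e ∈ T, φ e ∉ T) ∧ D.card ≤ 3 * T.card := by
  classical
  obtain ⟨T, h1, h2⟩ := (D.powerset.filter fun T => f ∈ T ∧ ∀ e ∈ T, φ e ∉ T).exists_max_image
    Finset.card ⟨{f}, by simp [hf, hφ f hf]⟩
  simp only [Finset.mem_filter, Finset.mem_powerset] at h1 h2
  obtain ⟨h3, h4, h5⟩ := h1
  refine ⟨T, h3, h4, h5, ?_⟩
  have h6 : D ⊆ T ∪ (D.filter fun e => φ e ∈ T) ∪ T.image φ := by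
    intro e he
    by_contra h
    simp only [Finset.mem_union, Finset.mem_filter, Finset.mem_image, not_or, not_and,
      not_exists] at h
    have := h2 (insert e T) ⟨Finset.insert_subset he h3, Finset.mem_insert_of_mem h4,
      fun e' he' h' => ?_⟩
    · rw [Finset.card_insert_of_notMem h.1.1] at this
      omega
    · rcases Finset.mem_insert.1 he' with rfl | he' <;> rcases Finset.mem_insert.1 h' with h' | h'
      · exact hφ _ he h'
      · exact h.1.2 he h'
      · exact h.2 e' he' h'
      · exact h5 e' he' h'
  have h7 : (D.filter fun e => φ e ∈ T).card ≤ T.card :=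
    Finset.card_le_card_of_injOn φ (fun e he => (Finset.mem_filter.1 he).2)
      (hi.mono fun e he => (Finset.mem_filter.1 he).1)
  have h8 := Finset.card_le_card h6
  have h9 := Finset.card_union_le (T ∪ D.filter fun e => φ e ∈ T) (T.image φ)
  have h10 := Finset.card_union_le T (D.filter fun e => φ e ∈ T)
  have h11 := Finset.card_image_le (s := T) (f := φ)
  omega

end Vale.Agent.P089
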