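import Vale.Agent.P201.Switch

/-!
Switchings with a general degree bound.

PLAN. Copy `ball_card`, `far_card`, `exists_girth` of `P201/Switch.lean`, replacing the degree bound 5 by
`Δ` and `6` by `Δ + 1` (here `tl q x = (false, x)`, `hd q y = (true, y)`, so the degree bound is
`card Q`). For `cond_le` imitate `Om_card`: `Ω T = {ω of girth g | ∀ (q, x) ∈ T, ω q x ∈ U₁}`; for
`(q, x) ∉ T` let `j = #{x' | (q, x') ∈ T}`. From `ω ∈ Ω (insert (q, x) T)` switch with any far `x'`
with `(q, x') ∉ T` (at least `N - j - R` choices): the result is in `Ω T`. A given `ω' ∈ Ω T` comes from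
pairs `(ω, x')` determined by `x'`, and `ω' q x' = ω q x ∈ U₁`, `(q, x') ∉ T`: at most `card U₁ - j` choices.
So `#Ω(insert) * (N - R - j) ≤ #Ω T * (card U₁ - j)`; as `card U₁ ≤ N - R` (and `j ≤ card U₁` if `Ω T` is
nonempty) this gives `#Ω(insert) * (N - R) ≤ #Ω T * card U₁`. Induct on `T`.
-/

namespace Vale.Agent.P089

open Equiv Vale.Agent.P201

variable {Q F : Type} [Fintype Q] [DecidableEq Q] [Fintype F] [DecidableEq F]

/-- tails -/
def tl (_ : Q) (x : F) : Bool × F := (false, x)

/-- heads -/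
def hd (_ : Q) (y : F) : Bool × F := (true, y)

omit [Fintype Q] [DecidableEq Q] [Fintype F] [DecidableEq F] in
theorem tl_ne_hd (q : Q) (x : F) (q' : Q) (y : F) : tl q x ≠ hd q' y := by simp [tl, hd]

omit [DecidableEq Q] in
theorem ball_card' (ω : Q → Perm F) (a : Bool × F) (k : ℕ) :
    (ball tl hd ω a k).card ≤ (Fintype.card Q + 1) ^ k := by
  induction k with
  | zero => simp [ball]
  | succ k ih =>
    refine (Finset.card_union_le _ _).trans ?_
    have := Finset.card_biUnion_le_card_mul (ball tl hd ω a k) (nbr tl hd ω) (Fintype.card Q)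
      (fun v _ => by
        refine le_trans (Finset.card_le_card (t := Finset.univ.image fun q : Q =>
          if v.1 then (false, (ω q).symm v.2) else (true, ω q v.2)) fun u hu => ?_)
          Finset.card_image_le
        simp only [nbr, Finset.mem_union, Finset.mem_image, Finset.mem_filter, Finset.mem_univ,
          true_and] at hu ⊢
        rcases hu with ⟨a, rfl, rfl⟩ | ⟨a, rfl, rfl⟩ <;> exact ⟨a.1, rfl⟩)
    have h2 := Nat.mul_le_mul_right (Fintype.card Q) ih
    rw [pow_succ, mul_add]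
    omega

omit [DecidableEq Q] in
theorem far_card' (g : ℕ) (ω : Q → Perm F) (q : Q) (x : F) :
    ∃ X : Finset F, Fintype.card F ≤ X.card + 4 * (Fintype.card Q + 1) ^ g ∧
      ∀ x' ∈ X, ∀ u, u = tl q x ∨ u = hd q (ω q x) →
        ∀ w, w = tl q x' ∨ w = hd q (ω q x') → w ∉ ball tl hd ω u g := by
  let B := ball tl hd ω (tl q x) g ∪ ball tl hd ω (hd q (ω q x)) g
  have hB : B.card ≤ 2 * (Fintype.card Q + 1) ^ g := by
    refine (Finset.card_union_le _ _).trans ?_
    have := ball_card' ω (tl q x) g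
    have := ball_card' ω (hd q (ω q x)) g
    omega
  let X₂ := Finset.univ.filter fun x' => tl q x' ∈ B
  let X₃ := Finset.univ.filter fun x' => hd q (ω q x') ∈ B
  have c2 : X₂.card ≤ B.card :=
    Finset.card_le_card_of_injOn (tl q) (fun x' hx => by simpa [X₂] using hx)
      fun a _ b _ h => (Prod.ext_iff.1 h).2
  have c3 : X₃.card ≤ B.card :=
    Finset.card_le_card_of_injOn (fun x' => hd q (ω q x')) (fun x' hx => by simpa [X₃] using hx)
      fun a _ b _ h => (ω q).injective (Prod.ext_iff.1 h).2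
  refine ⟨(X₂ ∪ X₃)ᶜ, ?_, fun x' hx => ?_⟩
  · have := Finset.card_add_card_compl (X₂ ∪ X₃)
    have := Finset.card_union_le X₂ X₃
    omega
  · simp only [X₂, X₃, B, Finset.mem_compl, Finset.mem_union, Finset.mem_filter,
      Finset.mem_univ, true_and, not_or] at hx
    rintro u (rfl | rfl) w (rfl | rfl)
    exacts [hx.1.1, hx.2.1, hx.1.2, hx.2.2]

theorem exists_gi (g : ℕ) (hg : 4 * (Fintype.card Q + 1) ^ g < Fintype.card F) :
    ∃ ω : Q → Perm F, Gi tl hd g ω := by
  classical
  have hb := tl_ne_hd (Q := Q) (F := F)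
  induction g with
  | zero => exact ⟨1, fun _ _ _ _ _ h => absurd h (by omega)⟩
  | succ g ih =>
    have hg' : 4 * (Fintype.card Q + 1) ^ g < Fintype.card F := by
      rw [pow_succ, mul_add] at hg
      omega
    let bad : (Q → Perm F) → Finset (Q × F × F) := fun ω => Finset.univ.filter fun e =>
      ∃ vx ed n, NB tl hd ω vx ed n ∧ n ≤ g ∧ vx n = vx 0 ∧ ∃ i < n, ed i = e
    obtain ⟨ω, H, hmin⟩ := (Finset.univ.filter (Gi tl hd g)).exists_min_image
      (fun ω => (bad ω).card) (by obtain ⟨ω, h⟩ := ih hg'; exact ⟨ω, by simpa using h⟩)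
    simp only [Finset.mem_filter, Finset.mem_univ, true_and] at H hmin
    refine ⟨ω, fun vx ed n h h0 hn hc => ?_⟩
    obtain ⟨⟨q, x, y⟩, he⟩ : ∃ e, ed 0 = e := ⟨_, rfl⟩
    have hy : ω q x = y := by have := h.mem 0 h0; rwa [he] at this
    subst hy
    obtain ⟨X, h1, h2⟩ := far_card' g ω q x
    obtain ⟨x', hx'⟩ : X.Nonempty := by
      rw [← Finset.card_pos]; omega
    have far := h2 x' hx'
    refine absurd (hmin _ (H.sw hb far)) (not_le.2 (Finset.card_lt_card ⟨?_, ?_⟩))
    · intro e he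
      simp only [bad, Finset.mem_filter, Finset.mem_univ, true_and] at he ⊢
      obtain ⟨vx', ed', n', a1, a2, a3, a4⟩ := he
      exact ⟨vx', ed', n', ⟨a1.lk, fun i hi => (switch hb H far a1 a2 a3 i hi).1, a1.nb⟩, a2, a3,
        a4⟩
    · intro hsub
      have := @hsub (q, x, ω q x) (by
        simp only [bad, Finset.mem_filter, Finset.mem_univ, true_and]
        exact ⟨vx, ed, n, h, by omega, hc, 0, h0, he⟩)
      simp only [bad, Finset.mem_filter, Finset.mem_univ, true_and] at this
      obtain ⟨vx', ed', n', a1, a2, a3, i, hi, a4⟩ := this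
      exact (switch hb H far a1 a2 a3 i hi).2 a4

open Classical in
/-- configurations of large girth sending given tails into a given set -/
noncomputable def OmT (g : ℕ) (U₁ : Finset F) (T : Finset (Q × F)) : Finset (Q → Perm F) :=
  Finset.univ.filter fun ω : Q → Perm F => Gi tl hd g ω ∧ ∀ p ∈ T, ω p.1 p.2 ∈ U₁

theorem mem_OmT {g : ℕ} {U₁ : Finset F} {T : Finset (Q × F)} {ω : Q → Perm F} :
    ω ∈ OmT g U₁ T ↔ Gi tl hd g ω ∧ ∀ p ∈ T, ω p.1 p.2 ∈ U₁ := by simp [OmT]

theorem OmT_step (g N' : ℕ) (hN : N' + 4 * (Fintype.card Q + 1) ^ g ≤ Fintype.card F)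
    (U₁ : Finset F) (hU : U₁.card ≤ N') (T : Finset (Q × F)) (q : Q) (x : F) (hT : (q, x) ∉ T) :
    (OmT g U₁ (insert (q, x) T)).card * N' ≤ (OmT g U₁ T).card * U₁.card := by
  have hb := tl_ne_hd (Q := Q) (F := F)
  let J : Finset F := Finset.univ.filter fun x' => (q, x') ∈ T
  let Y : (Q → Perm F) → Finset F := fun ω => (Finset.univ.filter fun x' => ω q x' ∈ U₁) \ J
  have hY : ∀ ω ∈ OmT g U₁ T, (Y ω).card + J.card = U₁.card := fun ω hω => by
    rw [Finset.card_sdiff_add_card_eq_card]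
    · exact Finset.card_bijective (ω q) (ω q).bijective (by simp)
    · intro x' hx'
      simpa using (mem_OmT.1 hω).2 (q, x') (by simpa [J] using hx')
  have hsub : OmT g U₁ (insert (q, x) T) ⊆ OmT g U₁ T := fun ω hω =>
    mem_OmT.2 ⟨(mem_OmT.1 hω).1, fun p hp => (mem_OmT.1 hω).2 p (Finset.mem_insert_of_mem hp)⟩
  choose X h1 h2 using fun ω => far_card' g ω q x
  have key : ∑ ω ∈ OmT g U₁ (insert (q, x) T), (X ω \ J).card ≤ ∑ ω ∈ OmT g U₁ T, (Y ω).card := by
    rw [← Finset.card_sigma, ← Finset.card_sigma]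
    refine Finset.card_le_card_of_injOn (fun p => ⟨sw p.1 q x p.2, p.2⟩) ?_ ?_
    · rintro ⟨ω, x'⟩ hp
      simp only [Finset.coe_sigma, Set.mem_sigma_iff, Finset.mem_coe, mem_OmT, Finset.mem_sdiff,
        Y, J, Finset.mem_filter, Finset.mem_univ, true_and] at hp ⊢
      obtain ⟨⟨a1, a2⟩, a3, a4⟩ := hp
      refine ⟨⟨a1.sw hb (h2 ω x' a3), fun p hp => ?_⟩, ?_, a4⟩
      · have b1 : In (sw ω q x x') (p.1, p.2, ω p.1 p.2) := by
          refine (sw_iff ?_).2 rfl
          obtain ⟨q', a⟩ := p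
          rintro rfl
          constructor <;> rintro rfl
          · exact hT hp
          · exact a4 hp
        rw [show sw ω q x x' p.1 p.2 = ω p.1 p.2 from b1]
        exact a2 p (Finset.mem_insert_of_mem hp)
      · simpa [sw] using a2 (q, x) (Finset.mem_insert_self _ _)
    · rintro ⟨ω, x'⟩ - ⟨ω', x''⟩ - e
      simp only [Sigma.mk.injEq, heq_eq_eq] at e
      obtain ⟨e', rfl⟩ := e
      have : ω = ω' := by
        funext q'
        have := congrFun e' q'
        by_cases c : q' = q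
        · subst c; simpa [sw] using this
        · simpa [sw, c] using this
      rw [this]
  have k1 : (OmT g U₁ (insert (q, x) T)).card * N' ≤
      ∑ ω ∈ OmT g U₁ (insert (q, x) T), ((X ω \ J).card + J.card) := by
    rw [← smul_eq_mul]
    refine Finset.card_nsmul_le_sum _ _ _ fun ω _ => ?_
    have := h1 ω
    have := Finset.le_card_sdiff J (X ω)
    omega
  have k2 : ∑ ω ∈ OmT g U₁ T, ((Y ω).card + J.card) = (OmT g U₁ T).card * U₁.card := by
    rw [Finset.sum_congr rfl hY, Finset.sum_const, smul_eq_mul]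
  have k3 := Nat.mul_le_mul_right J.card (Finset.card_le_card hsub)
  rw [Finset.sum_add_distrib, Finset.sum_const, smul_eq_mul] at k1 k2
  have _ := hU
  omega

open Classical in
theorem cond_le (g N' : ℕ) (hN : N' + 4 * (Fintype.card Q + 1) ^ g ≤ Fintype.card F)
    (U₁ : Finset F) (hU : U₁.card ≤ N') (T : Finset (Q × F)) :
    (Finset.univ.filter fun ω : Q → Perm F => Gi tl hd g ω ∧ ∀ p ∈ T, ω p.1 p.2 ∈ U₁).card *
      N' ^ T.card ≤
    (Finset.univ.filter fun ω : Q → Perm F => Gi tl hd g ω).card * U₁.card ^ T.card := by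
  have e : (Finset.univ.filter fun ω : Q → Perm F => Gi tl hd g ω) = OmT g U₁ ∅ := by
    ext ω
    simp [mem_OmT]
  have e' : (Finset.univ.filter fun ω : Q → Perm F =>
      Gi tl hd g ω ∧ ∀ p ∈ T, ω p.1 p.2 ∈ U₁) = OmT g U₁ T := by
    ext ω
    simp [mem_OmT]
  rw [e, e']
  clear e e'
  induction T using Finset.induction_on with
  | empty => simp
  | insert p T hp ih =>
    rw [Finset.card_insert_of_notMem hp, pow_succ', ← mul_assoc, pow_succ, ← mul_assoc]
    refine (Nat.mul_le_mul_right _ (OmT_step g N' hN U₁ hU T p.1 p.2 hp)).trans ?_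
    rw [mul_right_comm]
    exact Nat.mul_le_mul_right _ ih

end Vale.Agent.P089
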